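import Vale.Agent.P252.Main

open Vale.Agent.P252
open scoped ContDiff

theorem Vale.Agent.Results.P252.EntireCounterexample.result :
    ∀ n : ℕ, 10 ≤ n →
      ∃ u : (Fin n → ℝ) → ℝ,
        ContDiff ℝ ∞ u ∧
        (∀ x, (hess u x).PosDef) ∧
        (∀ x, AffineMaximalAt u x) ∧
        ¬ ∃ (A : Matrix (Fin n) (Fin n) ℝ) (b : Fin n → ℝ) (c : ℝ),
          ∀ x, u x = (1/2) * (x ⬝ᵥ A.mulVec x) + b ⬝ᵥ x + c :=
  entire_counterexample
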